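import Mathlib
import Vale.Agent.H62.P230.CutCubeBody

open MeasureTheory
open scoped ENNReal

namespace Vale.Agent.Results.P230.A_CutCubeLinearLattice

open Vale.Agent.H62.P230

/-- Let `n ≥ 1`, `a i ≥ 0` with `∑ a i > 0`, `t ≥ (∑ a i) / 2`, and let `K` be the unit cube
of dimension `n` cut by the half-space `∑ a i * y i ≤ t` (it contains the centre of the cube). Then `K`
is a convex body, and there is an invertible matrix `B` with `det B = 1 / (2 n)` such that the
lattice `B ℤⁿ` covers: every `x` is `B z` plus a point of `K` for some integer vector `z`.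
The density `vol K / |det B|` of this lattice covering is at most `2 n`. -/
theorem result (n : ℕ) (hn : 1 ≤ n) (a : Fin n → ℝ) (ha : ∀ i, 0 ≤ a i)
    (hA : 0 < ∑ i, a i) (t : ℝ) (ht : (∑ i, a i) / 2 ≤ t) (K : Set (Fin n → ℝ))
    (hK : K = Set.Icc (0 : Fin n → ℝ) 1 ∩ {y : Fin n → ℝ | ∑ i, a i * y i ≤ t}) :
    (Convex ℝ K ∧ IsCompact K ∧ (interior K).Nonempty) ∧
    ∃ B : Matrix (Fin n) (Fin n) ℝ, B.det = 1 / (2 * (n : ℝ)) ∧
      (∀ x : Fin n → ℝ, ∃ z : Fin n → ℤ, x - B.mulVec (fun i => (z i : ℝ)) ∈ K) ∧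
      volume K / ENNReal.ofReal |B.det| ≤ 2 * (n : ℝ≥0∞) :=
  cut_cube_lattice_covering n hn a ha hA t ht K hK

end Vale.Agent.Results.P230.A_CutCubeLinearLattice
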