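import Mathlib
import Vale.Agent.H76.P230General

open MeasureTheory
open scoped ENNReal

namespace Vale.Agent.Results.P230.B_HalfCubeSandwich

/-- Let `n ≥ 1`, let `a` be a nonzero vector, and let `K` be any set that lies in the unit cube
of dimension `n` and contains the half of that cube cut off by the hyperplane through the centre
with normal `a` (the points `y` of the cube with `∑ a i * y i ≤ (∑ a i) / 2`). Then `K` has
nonempty interior, and there is a matrix `B` with `|det B| = 1 / (2 n)` such that the lattice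
`B ℤⁿ` covers: every `x` is `B z` plus a point of `K` for some integer vector `z`. The density
`vol K / |det B|` of this lattice covering is at most `2 n`. -/
theorem result (n : ℕ) (hn : 1 ≤ n) (a : Fin n → ℝ) (ha : ∃ i, a i ≠ 0) (K : Set (Fin n → ℝ))
    (hH : Set.Icc (0 : Fin n → ℝ) 1 ∩ {y : Fin n → ℝ | ∑ i, a i * y i ≤ (∑ i, a i) / 2} ⊆ K)
    (hK : K ⊆ Set.Icc (0 : Fin n → ℝ) 1) :
    (interior K).Nonempty ∧
    ∃ B : Matrix (Fin n) (Fin n) ℝ, |B.det| = 1 / (2 * (n : ℝ)) ∧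
      (∀ x : Fin n → ℝ, ∃ z : Fin n → ℤ, x - B.mulVec (fun i => (z i : ℝ)) ∈ K) ∧
      volume K / ENNReal.ofReal |B.det| ≤ 2 * (n : ℝ≥0∞) := by
  obtain ⟨B, hdet, hcov, -, -, -, hint⟩ :=
    Vale.Agent.H76.P230General.cut_cube_lattice_covering_general n hn a ((∑ i, a i) / 2) ha le_rfl
  have hset : {y : Fin n → ℝ | (∀ i, 0 ≤ y i ∧ y i ≤ 1) ∧ ∑ i, a i * y i ≤ (∑ i, a i) / 2}
      ⊆ K := by
    intro y hy
    exact hH ⟨⟨fun i => (hy.1 i).1, fun i => (hy.1 i).2⟩, hy.2⟩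
  refine ⟨hint.mono (interior_mono hset), B, hdet, fun x => ?_, ?_⟩
  · obtain ⟨z, hz⟩ := hcov x
    exact ⟨z, hset hz⟩
  · have hvol : volume K ≤ 1 := by
      refine le_trans (measure_mono hK) ?_
      rw [Real.volume_Icc_pi]
      simp
    have hn0 : (0 : ℝ) < 2 * (n : ℝ) := by
      have : (1 : ℝ) ≤ (n : ℝ) := by exact_mod_cast hn
      linarith
    have h1 : ENNReal.ofReal (1 / (2 * (n : ℝ))) = (ENNReal.ofReal (2 * (n : ℝ)))⁻¹ := by
      rw [one_div, ENNReal.ofReal_inv_of_pos hn0]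
    have h2 : ENNReal.ofReal (2 * (n : ℝ)) = 2 * (n : ℝ≥0∞) := by
      rw [ENNReal.ofReal_mul (by norm_num)]
      simp
    rw [hdet, h1, div_eq_mul_inv, inv_inv, h2]
    calc volume K * (2 * (n : ℝ≥0∞)) ≤ 1 * (2 * (n : ℝ≥0∞)) := mul_le_mul_left hvol _
      _ = 2 * (n : ℝ≥0∞) := one_mul _

end Vale.Agent.Results.P230.B_HalfCubeSandwich
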